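import Vale.Agent.H24.GSH.Defs

/-! # P329: row D (the counting machine) -/

namespace Vale.Agent.H5.GSH

open Vale.Agent.H24.GSH

/-- Row C as a hypothesis -/
def Crit : Prop := ∀ (α Q : Type) [Fintype α] [DecidableEq α] [Fintype Q] [LinearOrder Q]
    (δ : Option Q → α → Option Q) (_ : Mono (fun q a => δ (some q) a)) (i j : Option Q),
    H 1 {w : List α | w.foldl δ i = j}

theorem foldl_map {α S T : Type} (step : S → α → S) (δ : T → α → T) (f : S → T)
    (hf : ∀ s a, f (step s a) = δ (f s) a) (w : List α) :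
    ∀ s, f (w.foldl step s) = w.foldl δ (f s) := by
  induction w with
  | nil => intro s; rfl
  | cons a w ih => intro s; rw [List.foldl_cons, List.foldl_cons, ih, hf]

/-- a machine with states `T`, transported from `Option (Fin n)` -/
theorem crit_equiv (hC : Crit) {α T : Type} [Fintype α] [DecidableEq α] {n : ℕ}
    (e : T → Option (Fin n)) (g : Option (Fin n) → T) (hge : ∀ t, g (e t) = t)
    (heg : ∀ t, e (g t) = t) (δ : T → α → T)
    (hm : ∀ a, ∀ p q p' q' : Fin n, p < q → e (δ (g (some p)) a) = some p' →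
      e (δ (g (some q)) a) = some q' → p' < q') (p q : T) :
    H 1 {w : List α | w.foldl δ p = q} := by
  have h := hC α (Fin n) (fun s a => e (δ (g s) a)) (fun a p q p' q' => hm a p q p' q') (e p) (e q)
  have hs : {w : List α | w.foldl δ p = q} =
      {w : List α | w.foldl (fun s a => e (δ (g s) a)) (e p) = e q} := by
    ext w
    have h2 := foldl_map δ (fun s a => e (δ (g s) a)) e (fun s a => by simp only [hge]) w p
    simp only [Set.mem_setOf_eq]
    rw [← h2]
    constructor
    · intro h; rw [h]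
    · intro h
      have := congrArg g h
      rwa [hge, hge] at this
  rw [hs]
  exact h

/-- intersecting four machines -/
theorem comb4 {α S T1 T2 T3 T4 : Type} (step : S → α → S)
    (d1 : T1 → α → T1) (d2 : T2 → α → T2) (d3 : T3 → α → T3) (d4 : T4 → α → T4)
    (f1 : S → T1) (f2 : S → T2) (f3 : S → T3) (f4 : S → T4)
    (h1 : ∀ s a, f1 (step s a) = d1 (f1 s) a) (h2 : ∀ s a, f2 (step s a) = d2 (f2 s) a)
    (h3 : ∀ s a, f3 (step s a) = d3 (f3 s) a) (h4 : ∀ s a, f4 (step s a) = d4 (f4 s) a)
    (r : T1 → T2 → T3 → T4 → S) (hr : ∀ s, r (f1 s) (f2 s) (f3 s) (f4 s) = s)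
    (H1 : ∀ p q, H 1 {w : List α | w.foldl d1 p = q}) (H2 : ∀ p q, H 1 {w : List α | w.foldl d2 p = q})
    (H3 : ∀ p q, H 1 {w : List α | w.foldl d3 p = q}) (H4 : ∀ p q, H 1 {w : List α | w.foldl d4 p = q})
    (x y : S) : H 1 {w : List α | w.foldl step x = y} := by
  have h := ((H1 (f1 x) (f1 y)).inter (H2 (f2 x) (f2 y))).inter
    ((H3 (f3 x) (f3 y)).inter (H4 (f4 x) (f4 y)))
  convert h using 1
  ext w
  simp only [Set.mem_setOf_eq, Set.mem_inter_iff]
  rw [← foldl_map step d1 f1 h1, ← foldl_map step d2 f2 h2, ← foldl_map step d3 f3 h3,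
    ← foldl_map step d4 f4 h4]
  constructor
  · intro h; rw [h]; exact ⟨⟨rfl, rfl⟩, rfl, rfl⟩
  · rintro ⟨⟨a1, a2⟩, a3, a4⟩
    rw [← hr (w.foldl step x), a1, a2, a3, a4, hr]

/-! ### the small machines -/

def e6 (u : Fin 6) : Option (Fin 5) := if h : u.val = 0 then none else some ⟨u.val - 1, by omega⟩
def g6 (s : Option (Fin 5)) : Fin 6 := match s with
  | none => 0
  | some k => ⟨k.val + 1, by omega⟩

def sw (k : Fin 6) : Fin 6 := if k = 0 then 3 else if k = 3 then 0 else k

theorem ge6 : ∀ t, g6 (e6 t) = t := by decide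
theorem eg6 : ∀ t, e6 (g6 t) = t := by decide

theorem mono_mv : ∀ c : Fin 3, ∀ p q p' q' : Fin 5, p < q → e6 (mv (g6 (some p)) c) = some p' →
    e6 (mv (g6 (some q)) c) = some q' → p' < q' := by decide

theorem mono_sw : ∀ p q p' q' : Fin 5, p < q → e6 (sw (g6 (some p))) = some p' →
    e6 (sw (g6 (some q))) = some q' → p' < q' := by decide

theorem H_counter (hC : Crit) {α : Type} [Fintype α] [DecidableEq α] (c : α → Fin 3) (p q : Fin 6) :
    H 1 {w : List α | w.foldl (fun s b => mv s (c b)) p = q} :=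
  crit_equiv hC e6 g6 ge6 eg6 _ (fun a => mono_mv (c a)) p q

theorem H_swap (hC : Crit) {α : Type} [Fintype α] [DecidableEq α] (c : α → Fin 3) (a : α)
    (p q : Fin 6) :
    H 1 {w : List α | w.foldl (fun s b => if b = a then sw s else mv s (c b)) p = q} := by
  refine crit_equiv hC e6 g6 ge6 eg6 _ (fun b => ?_) p q
  by_cases hb : b = a
  · simp only [hb, if_true]; exact mono_sw
  · simp only [hb, if_false]; exact mono_mv (c b)

def e2 (u : Bool) : Option (Fin 1) := if u then some 0 else none
def g2 (s : Option (Fin 1)) : Bool := s.isSome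

theorem H_parity (hC : Crit) {α : Type} [Fintype α] [DecidableEq α] (a : α) (p q : Bool) :
    H 1 {w : List α | w.foldl (fun s b => xor s (decide (b = a))) p = q} := by
  refine crit_equiv hC e2 g2 (by decide) (by decide) _ (fun b p q p' q' hpq => ?_) p q
  exact absurd hpq (by omega)

/-- the four point machine, states `none = w`, `some 0 = 0`, `some 1 = w²`, `some 2 = 1` -/
def bact (c : Fin 3) (y : Option (Fin 3)) : Option (Fin 3) :=
  if c = 0 then y else if c = 1 then
    (match y with
      | none => some 2 | some 0 => some 0 | some 1 => none | some 2 => some 1)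
  else (match y with
      | none => some 1 | some 0 => some 0 | some 1 => some 2 | some 2 => none)

/-- `a+` and `a-` -/
def aact (c : Fin 3) (y : Option (Fin 3)) : Option (Fin 3) :=
  if c = 1 then
    (match y with
      | none => some 1 | some 0 => none | some 1 => some 0 | some 2 => some 2)
  else (match y with
      | none => some 0 | some 0 => some 1 | some 1 => none | some 2 => some 2)

theorem mono_bact : ∀ c : Fin 3, ∀ p q p' q' : Fin 3, p < q → bact c (some p) = some p' →
    bact c (some q) = some q' → p' < q' := by decide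

theorem mono_aact : ∀ c : Fin 3, ∀ p q p' q' : Fin 3, p < q → aact c (some p) = some p' →
    aact c (some q) = some q' → p' < q' := by decide

theorem H_four (hC : Crit) {α : Type} [Fintype α] [DecidableEq α] (c : α → Fin 3) (a : α)
    (p q : Option (Fin 3)) :
    H 1 {w : List α | w.foldl (fun s b => if b = a then aact (c a) s else bact (c b) s) p = q} := by
  refine crit_equiv hC id id (fun _ => rfl) (fun _ => rfl) _ (fun b => ?_) p q
  by_cases hb : b = a
  · simp only [hb, if_true, id]; exact mono_aact (c a)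
  · simp only [hb, if_false, id]; exact mono_bact (c b)

/-- multiplication by `w` in `F_4` -/
def mw (x : Bool × Bool) : Bool × Bool := (x.2, xor x.1 x.2)

def enc (x : Bool × Bool) : Option (Fin 3) := match x with
  | (false, false) => some 0
  | (true, true) => some 1
  | (true, false) => some 2
  | (false, true) => none

/-- the value `w^{-u} v (n0 + n1 w + n2 w²)`, `v = w²` if `c = 1`, `v = w` otherwise -/
def f4 (c : Fin 3) (s : S) : Option (Fin 3) :=
  let z : Bool × Bool := (xor s.2.1 s.2.2.2, xor s.2.2.1 s.2.2.2)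
  let y := if c = 1 then mw (mw z) else mw z
  enc (if s.1.val % 3 = 0 then y else if s.1.val % 3 = 1 then mw (mw y) else mw y)

def par (s : S) : Bool := xor s.2.1 (xor s.2.2.1 s.2.2.2)

/-- `u - t + 3 n_t` -/
def kt (t : Fin 6) (n : Bool) (u : Fin 6) : Fin 6 := u - t + (if n then 3 else 0)

/-- find the state -/
def rec0 (u k0 k1 k2 : Fin 6) : S :=
  (u, decide (k0 ≠ kt 0 false u), decide (k1 ≠ kt 1 false u), decide (k2 ≠ kt 2 false u))

theorem rec0_eq : ∀ u : Fin 6, ∀ n0 n1 n2 : Bool,
    rec0 u (kt 0 n0 u) (kt 1 n1 u) (kt 2 n2 u) = (u, n0, n1, n2) := by decide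

/-- all states with given invariants, first one -/
def rec1 (c : Fin 3) (u : Fin 6) (p : Bool) (y : Option (Fin 3)) : S :=
  if f4 c (u, false, false, p) = y then (u, false, false, p) else
  if f4 c (u, true, true, p) = y then (u, true, true, p) else
  if f4 c (u, true, false, !p) = y then (u, true, false, !p) else (u, false, true, !p)

theorem rec1_eq : ∀ c : Fin 3, ∀ u : Fin 6, ∀ n0 n1 n2 : Bool,
    rec1 c u (par (u, n0, n1, n2)) (f4 c (u, n0, n1, n2)) = (u, n0, n1, n2) := by decide

theorem par_step : ∀ c : Fin 3, ∀ f : Bool, ∀ u : Fin 6, ∀ n0 n1 n2 : Bool,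
    par (bstep (u, n0, n1, n2) c f) = xor (par (u, n0, n1, n2)) f := by decide

theorem f4_step_b : ∀ ca c : Fin 3, ∀ u : Fin 6, ∀ n0 n1 n2 : Bool,
    f4 ca (bstep (u, n0, n1, n2) c false) = bact c (f4 ca (u, n0, n1, n2)) := by decide

theorem f4_step_a : ∀ ca : Fin 3, ca ≠ 0 → ∀ u : Fin 6, ∀ n0 n1 n2 : Bool,
    f4 ca (bstep (u, n0, n1, n2) ca true) = aact ca (f4 ca (u, n0, n1, n2)) := by decide

theorem kt_step_b0 : ∀ c : Fin 3, ∀ u : Fin 6, ∀ n0 n1 n2 : Bool,
    kt 0 (bstep (u, n0, n1, n2) c false).2.1 (bstep (u, n0, n1, n2) c false).1 =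
      mv (kt 0 n0 u) c := by decide
theorem kt_step_b1 : ∀ c : Fin 3, ∀ u : Fin 6, ∀ n0 n1 n2 : Bool,
    kt 1 (bstep (u, n0, n1, n2) c false).2.2.1 (bstep (u, n0, n1, n2) c false).1 =
      mv (kt 1 n1 u) c := by decide
theorem kt_step_b2 : ∀ c : Fin 3, ∀ u : Fin 6, ∀ n0 n1 n2 : Bool,
    kt 2 (bstep (u, n0, n1, n2) c false).2.2.2 (bstep (u, n0, n1, n2) c false).1 =
      mv (kt 2 n2 u) c := by decide
theorem kt_step_a0 : ∀ u : Fin 6, ∀ n0 n1 n2 : Bool,
    kt 0 (bstep (u, n0, n1, n2) 0 true).2.1 (bstep (u, n0, n1, n2) 0 true).1 =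
      sw (kt 0 n0 u) := by decide
theorem kt_step_a1 : ∀ u : Fin 6, ∀ n0 n1 n2 : Bool,
    kt 1 (bstep (u, n0, n1, n2) 0 true).2.2.1 (bstep (u, n0, n1, n2) 0 true).1 =
      sw (kt 1 n1 u) := by decide
theorem kt_step_a2 : ∀ u : Fin 6, ∀ n0 n1 n2 : Bool,
    kt 2 (bstep (u, n0, n1, n2) 0 true).2.2.2 (bstep (u, n0, n1, n2) 0 true).1 =
      sw (kt 2 n2 u) := by decide

/-- ROW D (the counting machine) -/
theorem machine (hC : Crit) {α : Type} [Fintype α] [DecidableEq α] (c : α → Fin 3) (a : α)
    (x y : S) :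
    H 1 {w : List α | w.foldl (fun s b => bstep s (c b) (decide (b = a))) x = y} := by
  by_cases hca : c a = 0
  · refine comb4 (fun s b => bstep s (c b) (decide (b = a)))
      (fun s b => mv s (c b)) (fun s b => if b = a then sw s else mv s (c b))
      (fun s b => if b = a then sw s else mv s (c b)) (fun s b => if b = a then sw s else mv s (c b))
      (fun s => s.1) (fun s => kt 0 s.2.1 s.1) (fun s => kt 1 s.2.2.1 s.1)
      (fun s => kt 2 s.2.2.2 s.1) (fun s b => rfl) ?_ ?_ ?_ rec0 ?_
      (H_counter hC c) (H_swap hC c a) (H_swap hC c a) (H_swap hC c a) x y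
    · rintro ⟨u, n0, n1, n2⟩ b
      by_cases hb : b = a
      · simp only [hb, hca, decide_true, if_true]; exact kt_step_a0 u n0 n1 n2
      · simp only [hb, decide_false, if_false]; exact kt_step_b0 (c b) u n0 n1 n2
    · rintro ⟨u, n0, n1, n2⟩ b
      by_cases hb : b = a
      · simp only [hb, hca, decide_true, if_true]; exact kt_step_a1 u n0 n1 n2
      · simp only [hb, decide_false, if_false]; exact kt_step_b1 (c b) u n0 n1 n2
    · rintro ⟨u, n0, n1, n2⟩ b
      by_cases hb : b = a
      · simp only [hb, hca, decide_true, if_true]; exact kt_step_a2 u n0 n1 n2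
      · simp only [hb, decide_false, if_false]; exact kt_step_b2 (c b) u n0 n1 n2
    · rintro ⟨u, n0, n1, n2⟩
      exact rec0_eq u n0 n1 n2
  · refine comb4 (fun s b => bstep s (c b) (decide (b = a)))
      (fun s b => mv s (c b)) (fun s b => xor s (decide (b = a)))
      (fun s b => if b = a then aact (c a) s else bact (c b) s) (fun s b => xor s (decide (b = a)))
      (fun s => s.1) par (f4 (c a)) par (fun s b => rfl) ?_ ?_ ?_
      (fun u p y _ => rec1 (c a) u p y) ?_
      (H_counter hC c) (H_parity hC a) (H_four hC c a) (H_parity hC a) x y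
    · rintro ⟨u, n0, n1, n2⟩ b
      exact par_step (c b) (decide (b = a)) u n0 n1 n2
    · rintro ⟨u, n0, n1, n2⟩ b
      by_cases hb : b = a
      · simp only [hb, decide_true, if_true]; exact f4_step_a (c a) hca u n0 n1 n2
      · simp only [hb, decide_false, if_false]; exact f4_step_b (c a) (c b) u n0 n1 n2
    · rintro ⟨u, n0, n1, n2⟩ b
      exact par_step (c b) (decide (b = a)) u n0 n1 n2
    · rintro ⟨u, n0, n1, n2⟩
      exact rec1_eq (c a) u n0 n1 n2

end Vale.Agent.H5.GSH
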